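import Mathlib

/-! P367: an entire function of exponential type cannot be very small on a long progression. -/

open Metric

noncomputable section

namespace Vale.Agent.P367

variable {E : Type*} [NormedAddCommGroup E] [NormedSpace ℂ E] {g L A : ℝ}
  {f : ℂ → E}

/-- Entire of exponential type. -/
def Cl (g : ℝ) (f : ℂ → E) (A : ℝ) : Prop :=
  Differentiable ℂ f ∧ ∀ z, ‖f z‖ ≤ A * Real.exp (g * ‖z‖)

theorem Cl.nonneg (h : Cl g f A) : 0 ≤ A := by
  have := (norm_nonneg _).trans (h.2 0)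
  simpa using this

theorem Cl.diff (hg : 0 < g) (h0 : 0 ≤ L) (hθ : L * g ≤ 1 / 64)
    (h : Cl g f A) : Cl g (fun z => f z - f (z - L)) (A / 8) := by
  refine ⟨h.1.sub (h.1.comp (differentiable_id.sub_const _)), fun z => ?_⟩
  have hA := h.nonneg
  have hb : ∀ w ∈ closedBall z g⁻¹, ‖deriv f w‖ ≤ A * Real.exp (g * ‖z‖ + 2) / g⁻¹ :=
    fun w hw => Complex.norm_deriv_le_of_forall_mem_sphere_norm_le (inv_pos.2 hg)
      h.1.diffContOnCl fun u hu => by
        refine (h.2 u).trans (mul_le_mul_of_nonneg_left (Real.exp_le_exp.2 ?_) hA)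
        have a1 := norm_le_of_mem_closedBall hw
        have a2 := norm_le_of_mem_closedBall (sphere_subset_closedBall hu)
        have a3 := mul_le_mul_of_nonneg_left (show ‖u‖ ≤ ‖z‖ + g⁻¹ + g⁻¹ by linarith) hg.le
        rw [mul_add, mul_add, mul_inv_cancel₀ hg.ne'] at a3
        linarith
  have hn : ‖z - (z - L)‖ = L := by simp [abs_of_nonneg h0]
  have := (convex_closedBall z g⁻¹).norm_image_sub_le_of_norm_deriv_le (fun w _ => h.1 w) hb
    (x := z - L) (y := z) (by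
      rw [mem_closedBall, dist_comm, dist_eq_norm, hn, ← one_div, le_div_iff₀ hg]
      linarith)
    (mem_closedBall_self (inv_pos.2 hg).le)
  rw [hn, Real.exp_add, div_inv_eq_mul] at this
  have a3 : 0 ≤ A * Real.exp (g * ‖z‖) := by positivity
  have a5 : Real.exp 2 ≤ 8 := by
    have b1 : Real.exp 1 ^ 2 ≤ 2.75 ^ 2 :=
      pow_le_pow_left₀ (by positivity) (by linarith [Real.exp_one_lt_d9]) 2
    rw [← Real.exp_nat_mul] at b1
    norm_num at b1 ⊢
    linarith
  have a4 := mul_le_mul_of_nonneg_left (mul_le_mul a5 hθ (by positivity) (by norm_num)) a3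
  linarith

theorem Cl.step (hg : 0 < g) (h0 : 0 ≤ L) (hθ : L * g ≤ 1 / 64)
    (M : ℕ) : ∀ (K : ℕ) (f : ℂ → E) (A ε : ℝ) (x : ℂ), Cl g f A →
      (∀ k : ℕ, K ≤ k → k ≤ K + M → ‖f (x - k * L)‖ ≤ ε) →
      ‖f x‖ ≤ 2 ^ (K + M) * (2 ^ M * ε + A / 8 ^ M * Real.exp (g * (‖x‖ + K * L))) := by
  induction M with
  | zero =>
    intro K f A ε x h hk
    have hA := h.nonneg
    have he : 0 ≤ ε := (norm_nonneg _).trans (hk K le_rfl le_rfl)
    have a1 : ‖f x‖ ≤ A * Real.exp (g * (‖x‖ + K * L)) := (h.2 x).trans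
      (mul_le_mul_of_nonneg_left (Real.exp_le_exp.2 (mul_le_mul_of_nonneg_left
        (le_add_of_nonneg_right (by positivity)) hg.le)) hA)
    have a2 : (1 : ℝ) ≤ 2 ^ (K + 0) := one_le_pow₀ one_le_two
    have a3 : 0 ≤ A * Real.exp (g * (‖x‖ + K * L)) := by positivity
    simp only [pow_zero, one_mul, div_one]
    nlinarith
  | succ M ih =>
    intro K
    induction K with
    | zero =>
      intro f A ε x h hk
      have hA := h.nonneg
      have a1 : ‖f x‖ ≤ ε := by simpa using hk 0 le_rfl (Nat.zero_le _)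
      have he : 0 ≤ ε := (norm_nonneg _).trans a1
      have a2 : (1 : ℝ) ≤ 2 ^ (0 + (M + 1)) := one_le_pow₀ one_le_two
      have a3 : (1 : ℝ) ≤ 2 ^ (M + 1) := one_le_pow₀ one_le_two
      have a4 : 0 ≤ A / 8 ^ (M + 1) * Real.exp (g * (‖x‖ + (0 : ℕ) * L)) := by positivity
      have a5 : ε ≤ 2 ^ (M + 1) * ε := le_mul_of_one_le_left he a3
      nlinarith
    | succ K ihK =>
      intro f A ε x h hk
      have hA := h.nonneg
      have b1 := ihK f A ε (x - L) h fun k k1 k2 => by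
        have := hk (k + 1) (by omega) (by omega)
        rwa [show x - ((k + 1 : ℕ) : ℂ) * L = x - L - k * L by push_cast; ring] at this
      have b2 := ih (K + 1) _ _ (2 * ε) x (h.diff hg h0 hθ) fun k k1 k2 => by
        have c1 := hk k k1 (by omega)
        have c2 := hk (k + 1) (by omega) (by omega)
        rw [show x - ((k + 1 : ℕ) : ℂ) * L = x - k * L - L by push_cast; ring] at c2
        exact (norm_sub_le _ _).trans (by linarith)
      have b3 : Real.exp (g * (‖x - L‖ + K * L)) ≤ Real.exp (g * (‖x‖ + (K + 1 : ℕ) * L)) := by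
        refine Real.exp_le_exp.2 (mul_le_mul_of_nonneg_left ?_ hg.le)
        have := norm_sub_le x (L : ℂ)
        rw [Complex.norm_real, Real.norm_of_nonneg h0] at this
        push_cast
        linarith
      have b4 : ‖f x‖ ≤ ‖f (x - L)‖ + ‖f x - f (x - L)‖ := by
        simpa using norm_add_le (f (x - L)) (f x - f (x - L))
      have b5 := mul_le_mul_of_nonneg_left b3
        (show 0 ≤ 2 ^ (K + (M + 1)) * (A / 8 ^ (M + 1)) by positivity)
      have e1 : (2 : ℝ) ^ (K + 1 + M) = 2 ^ (K + (M + 1)) := by ring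
      have e2 : (2 : ℝ) ^ (K + 1 + (M + 1)) = 2 * 2 ^ (K + (M + 1)) := by ring
      have e3 : A / 8 / 8 ^ M = A / 8 ^ (M + 1) := by rw [div_div, pow_succ']
      have e4 : (2 : ℝ) ^ M * (2 * ε) = 2 ^ (M + 1) * ε := by ring
      rw [e1, e3, e4] at b2
      rw [e2]
      linarith

theorem Cl.low (hg : 0 < g) (h0 : 0 ≤ L) (hθ : L * g ≤ 1 / 64)
    (h : Cl g f 1) (hf : ‖f 0‖ = 1) (K : ℕ) :
    1 / 64 ^ (K + 1) ≤ ∑ k ∈ Finset.Icc K (2 * K + 1), ‖f (-(k * L : ℝ) : ℝ)‖ ^ 2 := by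
  by_contra hc
  push Not at hc
  have a1 := Cl.step hg h0 hθ (K + 1) K f 1 (1 / 8 ^ (K + 1)) 0 h fun k k1 k2 => by
    have b1 := (Finset.single_le_sum (f := fun k : ℕ => ‖f (-(k * L : ℝ) : ℝ)‖ ^ 2)
      (fun _ _ => sq_nonneg _) (Finset.mem_Icc.2 ⟨k1, (by omega : k ≤ 2 * K + 1)⟩)).trans_lt hc
    have e : ((-(k * L : ℝ) : ℝ) : ℂ) = 0 - k * L := by push_cast; ring
    rw [e, show (1 : ℝ) / 64 ^ (K + 1) = (1 / 8 ^ (K + 1)) ^ 2 by
      rw [div_pow, ← pow_mul, mul_comm, pow_mul]; norm_num] at b1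
    exact (pow_lt_pow_left₀ (n := 2) · (by positivity) two_ne_zero) |>.mt (not_lt.2 b1.le) |>
      not_lt.1
  have a2 : Real.exp (g * L) ≤ 2 := by
    have b2 : g * L ≤ 1 / 8 := by linarith
    have b3 := Real.exp_bound_div_one_sub_of_interval (x := g * L) (by positivity) (by linarith)
    refine b3.trans ?_
    rw [div_le_iff₀ (by linarith)]
    linarith
  have a3 : Real.exp (g * (‖(0 : ℂ)‖ + K * L)) ≤ 2 ^ K := by
    rw [norm_zero, zero_add, show g * (K * L) = K * (g * L) by ring, Real.exp_nat_mul]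
    exact pow_le_pow_left₀ (by positivity) a2 K
  rw [hf] at a1
  have a4 := mul_le_mul_of_nonneg_left a3
    (show (0 : ℝ) ≤ 2 ^ (K + (K + 1)) * (1 / 8 ^ (K + 1)) by positivity)
  have e0 : (8 : ℝ) ^ (K + 1) = 8 * (2 ^ K) ^ 3 := by
    rw [← pow_mul, mul_comm K 3, pow_mul, pow_succ']; norm_num
  have e1 : (2 : ℝ) ^ (K + (K + 1)) * (1 / 8 ^ (K + 1)) * 2 ^ K = 1 / 4 := by
    rw [e0]; field_simp; ring
  have e2 : (2 : ℝ) ^ (K + (K + 1)) * (2 ^ (K + 1) * (1 / 8 ^ (K + 1))) = 1 / 2 := by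
    rw [e0]; field_simp; ring
  linarith

end Vale.Agent.P367
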