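import Mathlib

/-! P367: the SK model and the QAOA state. -/

open MeasureTheory ProbabilityTheory Matrix

noncomputable section

namespace Vale.Agent.P367

/-- Computational basis states of `n` qubits. -/
abbrev Cfg (n : ℕ) : Type := Fin n → Bool

/-- Pairs `i < j`. -/
abbrev Pr (n : ℕ) : Type := {e : Fin n × Fin n // e.1 < e.2}

/-- The spin `±1` of a bit. -/
def sp (b : Bool) : ℝ := if b then -1 else 1

/-- The SK Hamiltonian. -/
def ham (n : ℕ) (J : Pr n → ℝ) (σ : Cfg n) : ℝ :=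
  (√(n : ℝ))⁻¹ * ∑ e : Pr n, J e * (sp (σ e.1.1) * sp (σ e.1.2))

/-- Independent standard Gaussian couplings. -/
def gauss (n : ℕ) : Measure (Pr n → ℝ) := Measure.pi fun _ => gaussianReal 0 1

/-- The maximum of the Hamiltonian. -/
def best (n : ℕ) (J : Pr n → ℝ) : ℝ := ⨆ σ : Cfg n, ham n J σ

/-- The cost operator. -/
def cost (n : ℕ) (J : Pr n → ℝ) : Matrix (Cfg n) (Cfg n) ℂ := diagonal fun σ => (ham n J σ : ℂ)

/-- The Pauli matrix `X` on the qubit `i`. -/
def pauliX (n : ℕ) (i : Fin n) : Matrix (Cfg n) (Cfg n) ℂ :=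
  Matrix.of fun σ τ => if τ = Function.update σ i (!σ i) then 1 else 0

/-- The mixing operator. -/
def mixer (n : ℕ) : Matrix (Cfg n) (Cfg n) ℂ := ∑ i, pauliX n i

/-- The uniform superposition. -/
def plus (n : ℕ) : Cfg n → ℂ := fun _ => (((√2)⁻¹ ^ n : ℝ) : ℂ)

/-- One layer. -/
def layer (n : ℕ) (J : Pr n → ℝ) (γ β : ℝ) (ψ : Cfg n → ℂ) : Cfg n → ℂ :=
  NormedSpace.exp ((-(Complex.I * β)) • mixer n) *ᵥ
    (NormedSpace.exp ((-(Complex.I * γ)) • cost n J) *ᵥ ψ)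

/-- The QAOA state: the layers `0, …, p - 1` are applied in this order. -/
def state (n : ℕ) (J : Pr n → ℝ) {p : ℕ} (γ β : Fin p → ℝ) : Cfg n → ℂ :=
  (List.finRange p).foldl (fun ψ k => layer n J (γ k) (β k) ψ) (plus n)

/-- The expected cost in the QAOA state. -/
def energy (n : ℕ) (J : Pr n → ℝ) {p : ℕ} (γ β : Fin p → ℝ) : ℝ :=
  (star (state n J γ β) ⬝ᵥ (cost n J *ᵥ state n J γ β)).re

end Vale.Agent.P367
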