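import Vale.Agent.P367.An

/-! P367: Cameron-Martin shifts and the lower tail of the local field. -/

open MeasureTheory ProbabilityTheory

set_option linter.unusedSectionVars false

noncomputable section

namespace Vale.Agent.P367

variable {ι X : Type} [Fintype ι] [Fintype X]

/-- The standard Gaussian measure. -/
abbrev gp (ι : Type) [Fintype ι] : Measure (ι → ℝ) := Measure.pi fun _ => gaussianReal 0 1

theorem gp_eq : gp ι = (volume : Measure (ι → ℝ)).withDensity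
    fun x => ENNReal.ofReal (∏ k, gaussianPDFReal 0 1 (x k)) := by
  refine Measure.pi_eq fun s hs => ?_
  have hi : Integrable (fun x : ι → ℝ => ∏ k, gaussianPDFReal 0 1 (x k)) volume :=
    Integrable.fintype_prod (f := fun _ => gaussianPDFReal 0 1)
      fun _ => integrable_gaussianPDFReal 0 1
  rw [withDensity_apply _ (MeasurableSet.univ_pi hs),
    ← ofReal_integral_eq_lintegral_ofReal hi.integrableOn
      (ae_of_all _ fun x => Finset.prod_nonneg fun _ _ => gaussianPDFReal_nonneg _ _ _),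
    volume_pi, Measure.restrict_pi_pi,
    integral_fintype_prod_eq_prod (f := fun _ => gaussianPDFReal 0 1),
    ENNReal.ofReal_prod_of_nonneg fun _ _ => integral_nonneg fun _ => gaussianPDFReal_nonneg _ _ _]
  exact Finset.prod_congr rfl fun k _ => (gaussianReal_apply_eq_integral 0 one_ne_zero _).symm

theorem gp_int (f : (ι → ℝ) → ℝ) :
    ∫ x, f x ∂gp ι = ∫ x, (∏ k, gaussianPDFReal 0 1 (x k)) * f x := by
  have hm : Measurable fun x : ι → ℝ => ∏ k, gaussianPDFReal 0 1 (x k) :=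
    Finset.measurable_prod _ fun k _ =>
      (measurable_gaussianPDFReal 0 1).comp (measurable_pi_apply k)
  rw [gp_eq, integral_withDensity_eq_integral_toReal_smul hm.ennreal_ofReal (by simp)]
  refine integral_congr_ae (ae_of_all _ fun x => ?_)
  simp only [smul_eq_mul]
  rw [ENNReal.toReal_ofReal (Finset.prod_nonneg fun _ _ => gaussianPDFReal_nonneg _ _ _)]

/-- The density of the shifted measure. -/
def sh (a J : ι → ℝ) : ℝ := Real.exp (∑ e, a e * J e - (∑ e, a e ^ 2) / 2)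

theorem cm (a : ι → ℝ) (f : (ι → ℝ) → ℝ) :
    ∫ J, f (J + a) ∂gp ι = ∫ J, f J * sh a J ∂gp ι := by
  rw [gp_int, gp_int, ← integral_add_right_eq_self
    (fun x => (∏ k, gaussianPDFReal 0 1 (x k)) * (f x * sh a x)) a]
  refine integral_congr_ae (ae_of_all _ fun x => ?_)
  have e : ∏ k, gaussianPDFReal 0 1 (x k) =
      (∏ k, gaussianPDFReal 0 1 ((x + a) k)) * sh a (x + a) := by
    rw [sh, Finset.sum_div, ← Finset.sum_sub_distrib, Real.exp_sum, ← Finset.prod_mul_distrib]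
    refine Finset.prod_congr rfl fun k _ => ?_
    simp only [gaussianPDFReal, Pi.add_apply, mul_assoc, ← Real.exp_add]
    congr 2
    push_cast
    ring
  simp only [e]
  ring

theorem sh_int (a : ι → ℝ) : ∫ J, sh a J ∂gp ι = 1 := by
  simpa using (cm a fun _ => 1).symm

theorem sh_integrable (a : ι → ℝ) : Integrable (sh a) (gp ι) :=
  Integrable.of_integral_ne_zero (by rw [sh_int]; exact one_ne_zero)

/-- The indicator of the lower tail. -/
def chi (x : ℝ) : ℝ := if x < -1 then 1 else 0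

theorem chi_mem (x : ℝ) : 0 ≤ chi x ∧ chi x ≤ 1 := by
  unfold chi
  split_ifs <;> norm_num

theorem chi_meas : Measurable chi :=
  Measurable.ite (measurableSet_lt measurable_id measurable_const) measurable_const measurable_const

theorem sh_le {a J : ι → ℝ} (h1 : 1 / 2 ≤ ∑ e, a e ^ 2) (h2 : ∑ e, a e ^ 2 ≤ 1) {s S l : ℝ}
    (hs : 8 ≤ s) (hS : s ≤ S) (hl : 0 < l) :
    sh ((-s) • a) J ≤ Real.exp (-s ^ 2 / 8) + l * chi (∑ e, a e * J e) +
      Real.exp (S ^ 2) / l * sh ((-(2 * s)) • a) J := by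
  have e : ∀ t : ℝ, sh (t • a) J =
      Real.exp (t * ∑ e, a e * J e - t ^ 2 * (∑ e, a e ^ 2) / 2) := fun t => by
    simp only [sh, Pi.smul_apply, smul_eq_mul, mul_pow, mul_assoc, ← Finset.mul_sum]
  rw [e, e]
  generalize ∑ e, a e * J e = x
  generalize ∑ e, a e ^ 2 = r at h1 h2
  unfold chi
  split_ifs with hx
  · have a1 : Real.exp (-s * x - (-s) ^ 2 * r / 2) ^ 2 ≤
        Real.exp (S ^ 2) * Real.exp (-(2 * s) * x - (-(2 * s)) ^ 2 * r / 2) := by
      rw [← Real.exp_add, ← Real.exp_nat_mul]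
      refine Real.exp_le_exp.2 ?_
      have b1 : s ^ 2 ≤ S ^ 2 := pow_le_pow_left₀ (by linarith) hS 2
      have b2 := mul_le_mul_of_nonneg_left h2 (sq_nonneg s)
      push_cast
      linarith
    have a2 := Real.exp_pos (-s ^ 2 / 8)
    generalize Real.exp (-s * x - (-s) ^ 2 * r / 2) = y at a1
    have a3 : y ≤ l + y ^ 2 / l := by
      rw [← sub_le_iff_le_add', le_div_iff₀ hl]
      nlinarith [sq_nonneg (y - l), sq_nonneg y, sq_nonneg l]
    have a4 := div_le_div_of_nonneg_right a1 hl.le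
    rw [mul_div_right_comm] at a4
    linarith
  · have a1 : Real.exp (-s * x - (-s) ^ 2 * r / 2) ≤ Real.exp (-s ^ 2 / 8) := by
      refine Real.exp_le_exp.2 ?_
      have b1 := mul_le_mul_of_nonneg_left h1 (sq_nonneg s)
      have b2 := mul_le_mul_of_nonneg_left (not_lt.1 hx) (show 0 ≤ s by linarith)
      nlinarith
    have a2 : 0 ≤ Real.exp (S ^ 2) / l * Real.exp (-(2 * s) * x - (-(2 * s)) ^ 2 * r / 2) := by
      positivity
    linarith

theorem bdd_int {f : (ι → ℝ) → ℝ} (hf : Measurable f) (h : ∀ J, 0 ≤ f J ∧ f J ≤ 1) :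
    Integrable f (gp ι) :=
  (integrable_const (1 : ℝ)).mono' hf.aestronglyMeasurable (ae_of_all _ fun J => by
    rw [Real.norm_of_nonneg (h J).1]; exact (h J).2)

theorem num_small {L : ℝ} {K : ℕ} (hK : 112 ≤ K * L ^ 2) (h1 : L ^ 2 ≤ 1) :
    (K + 2) * Real.exp (-(K * L) ^ 2 / 8) ≤ 1 / 64 ^ (K + 1) / 4 := by
  have k1 : (1 : ℝ) ≤ K := by nlinarith [(Nat.cast_nonneg K : (0 : ℝ) ≤ K)]
  have a1 : (K + 2 : ℝ) ≤ Real.exp (K + 1) := by linarith [Real.add_one_le_exp ((K : ℝ) + 1)]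
  have a2 : (256 : ℝ) ≤ Real.exp 6 := by
    have b1 : (2.7 : ℝ) ^ 6 ≤ Real.exp 1 ^ 6 :=
      pow_le_pow_left₀ (by norm_num) (by linarith [Real.exp_one_gt_d9]) 6
    rw [← Real.exp_nat_mul] at b1
    norm_num at b1 ⊢
    linarith
  have a3 : (64 : ℝ) ^ (K + 1) * 4 ≤ Real.exp ((K + 1 : ℕ) * 6) := by
    rw [Real.exp_nat_mul]
    refine le_trans ?_ (pow_le_pow_left₀ (by norm_num) a2 _)
    rw [show (256 : ℝ) = 64 * 4 by norm_num, mul_pow]
    exact mul_le_mul_of_nonneg_left (le_self_pow₀ (by norm_num) K.succ_ne_zero) (by positivity)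
  rw [div_div, le_div_iff₀ (by positivity)]
  refine (mul_le_mul (mul_le_mul_of_nonneg_right a1 (by positivity)) a3 (by positivity)
    (by positivity)).trans ?_
  rw [← Real.exp_add, ← Real.exp_add, Real.exp_le_one_iff]
  push_cast
  nlinarith [mul_le_mul_of_nonneg_left hK (show (0 : ℝ) ≤ K by positivity)]

theorem num_eta {g L S c l : ℝ} {K : ℕ} (hg : 1 ≤ g) (hL : L * g = 1 / 64) (h0 : 0 < L)
    (k1 : 112 ≤ K * L ^ 2) (k2 : K * L ^ 2 ≤ 113) (hS : S = (2 * K + 1 : ℕ) * L)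
    (hc : c = 1 / 64 ^ (K + 1))
    (hl : l = 4 * (K + 2) * (Real.exp (S ^ 2) * Real.exp (4 * g * S)) / c) :
    Real.exp (-(10 ^ 9 * g ^ 2)) ≤ c / 2 / ((K + 2) * l) := by
  have l1 : L ≤ 1 := by nlinarith
  have k0 : (1 : ℝ) ≤ K := by nlinarith [(Nat.cast_nonneg K : (0 : ℝ) ≤ K)]
  have k3 : (K : ℝ) ≤ 462848 * g ^ 2 := by
    have := mul_le_mul_of_nonneg_right k2 (sq_nonneg g)
    rw [mul_assoc, ← mul_pow, hL] at this
    linarith
  have s1 : S ≤ 3 * K * L := by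
    rw [hS]
    push_cast
    nlinarith
  have s0 : 0 ≤ S := by rw [hS]; positivity
  have s2 : S ^ 2 ≤ 1017 * K := by
    have := pow_le_pow_left₀ s0 s1 2
    nlinarith [mul_le_mul_of_nonneg_left k2 (show (0 : ℝ) ≤ K by positivity)]
  have s3 : 4 * g * S ≤ K := by
    have := mul_le_mul_of_nonneg_left s1 (show 0 ≤ 4 * g by positivity)
    rw [show 4 * g * (3 * K * L) = 12 * K * (L * g) by ring, hL] at this
    linarith
  have c1 : (64 : ℝ) ^ (K + 1) ≤ Real.exp (128 * K) := by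
    refine (pow_le_pow_left₀ (by norm_num) (show (64 : ℝ) ≤ Real.exp 64 by
      linarith [Real.add_one_le_exp 64]) _).trans ?_
    rw [← Real.exp_nat_mul]
    refine Real.exp_le_exp.2 ?_
    push_cast
    linarith
  have c2 : (K + 2 : ℝ) ≤ Real.exp (2 * K) := by linarith [Real.add_one_le_exp (2 * (K : ℝ))]
  have c3 : (8 : ℝ) ≤ Real.exp (8 * K) := by linarith [Real.add_one_le_exp (8 * (K : ℝ))]
  have e : c / 2 / ((K + 2) * l) = (8 * ((K + 2) * (K + 2)) *
      (Real.exp (S ^ 2) * Real.exp (4 * g * S)) * (64 ^ (K + 1) * 64 ^ (K + 1)))⁻¹ := by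
    rw [hl, hc]
    field_simp
    norm_num
  rw [e, Real.exp_neg]
  refine inv_anti₀ (by positivity) ((mul_le_mul (mul_le_mul (mul_le_mul c3
    (mul_le_mul c2 c2 (by positivity) (by positivity)) (by positivity) (by positivity)) le_rfl
    (by positivity) (by positivity)) (mul_le_mul c1 c1 (by positivity) (by positivity))
    (by positivity) (by positivity)).trans ?_)
  simp only [← Real.exp_add]
  refine Real.exp_le_exp.2 ?_
  nlinarith [sq_nonneg g]

theorem tail {g : ℝ} (hg1 : 1 ≤ g) (q : (ι → ℝ) → X → ℝ) (a : X → ι → ℝ)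
    (hq : ∀ τ, Continuous fun J => q J τ) (q0 : ∀ J τ, 0 ≤ q J τ) (q1 : ∀ J, ∑ τ, q J τ = 1)
    (r1 : ∀ τ, 1 / 2 ≤ ∑ e, a τ e ^ 2) (r2 : ∀ τ, ∑ e, a τ e ^ 2 ≤ 1)
    (hf : ∀ J, ∃ f : ℂ → EuclideanSpace ℂ X, Cl g f 1 ∧
      ∀ t : ℝ, ‖f t‖ ^ 2 = ∑ τ, q (J + t • a τ) τ) :
    Real.exp (-(10 ^ 9 * g ^ 2)) ≤ ∫ J, ∑ τ, q J τ * chi (∑ e, a τ e * J e) ∂gp ι := by
  have g0 : 0 < g := by linarith
  have hg := g0.le
  obtain ⟨L, h0, hθ⟩ : ∃ L : ℝ, 0 < L ∧ L * g = 1 / 64 :=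
    ⟨1 / 64 / g, by positivity, div_mul_cancel₀ _ g0.ne'⟩
  have h1 : L ≤ 1 := by nlinarith
  have hL2 : L ^ 2 ≤ L := by nlinarith
  obtain ⟨K, hK, hK2⟩ : ∃ K : ℕ, 112 ≤ K * L ^ 2 ∧ K * L ^ 2 ≤ 113 := by
    refine ⟨⌈112 / L ^ 2⌉₊, (div_le_iff₀ (by positivity)).1 (Nat.le_ceil _), ?_⟩
    have := mul_le_mul_of_nonneg_right
      (Nat.ceil_lt_add_one (show 0 ≤ 112 / L ^ 2 by positivity)).le (sq_nonneg L)
    rw [add_mul, div_mul_cancel₀ _ (by positivity)] at this
    linarith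
  have hKL : 8 ≤ K * L := by nlinarith [(Nat.cast_nonneg K : (0 : ℝ) ≤ K)]
  obtain ⟨S, hS⟩ : ∃ S : ℝ, S = (2 * K + 1 : ℕ) * L := ⟨_, rfl⟩
  obtain ⟨c, hc⟩ : ∃ c : ℝ, c = 1 / 64 ^ (K + 1) := ⟨_, rfl⟩
  have c0 : 0 < c := by rw [hc]; positivity
  obtain ⟨l, hl⟩ : ∃ l : ℝ, l = 4 * (K + 2) * (Real.exp (S ^ 2) * Real.exp (4 * g * S)) / c :=
    ⟨_, rfl⟩
  have l0 : 0 < l := by rw [hl]; positivity
  refine (num_eta hg1 hθ h0 hK hK2 hS hc hl).trans ?_
  have q2 : ∀ J τ, 0 ≤ q J τ ∧ q J τ ≤ 1 := fun J τ => ⟨q0 J τ,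
    (Finset.single_le_sum (fun τ _ => q0 J τ) (Finset.mem_univ τ)).trans (q1 J).le⟩
  have i1 : ∀ (b : ι → ℝ) τ, Integrable (fun J => q (J + b) τ) (gp ι) := fun b τ =>
    bdd_int ((hq τ).comp (continuous_id.add continuous_const)).measurable fun J => q2 _ _
  have i2 : ∀ (b : ι → ℝ) τ, Integrable (fun J => q J τ * sh b J) (gp ι) := fun b τ =>
    (sh_integrable b).bdd_mul (c := 1) (hq τ).aestronglyMeasurable (ae_of_all _ fun J => by
      rw [Real.norm_of_nonneg (q0 _ _)]; exact (q2 _ _).2)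
  have i3 : ∀ τ, Integrable (fun J => q J τ * chi (∑ e, a τ e * J e)) (gp ι) := fun τ =>
    bdd_int ((hq τ).measurable.mul (chi_meas.comp (by fun_prop))) fun J =>
      ⟨mul_nonneg (q0 _ _) (chi_mem _).1, mul_le_one₀ (q2 _ _).2 (chi_mem _).1 (chi_mem _).2⟩
  have j1 : ∀ t : ℝ, Integrable (fun J => ∑ τ, q (J + t • a τ) τ) (gp ι) := fun t =>
    integrable_finsetSum _ fun τ _ => i1 _ τ
  have j2 : ∀ t : ℝ, Integrable (fun J => ∑ τ, q J τ * sh (t • a τ) J) (gp ι) := fun t =>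
    integrable_finsetSum _ fun τ _ => i2 _ τ
  have j3 : Integrable (fun J => ∑ τ, q J τ * chi (∑ e, a τ e * J e)) (gp ι) :=
    integrable_finsetSum _ fun τ _ => i3 τ
  have e1 : ∀ t : ℝ, ∫ J, ∑ τ, q (J + t • a τ) τ ∂gp ι =
      ∫ J, ∑ τ, q J τ * sh (t • a τ) J ∂gp ι := fun t => by
    rw [integral_finsetSum _ fun τ _ => i1 _ τ, integral_finsetSum _ fun τ _ => i2 _ τ]
    exact Finset.sum_congr rfl fun τ _ => cm _ fun J => q J τ
  have up : ∀ s : ℝ, 0 ≤ s → s ≤ S →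
      ∫ J, ∑ τ, q J τ * sh ((-(2 * s)) • a τ) J ∂gp ι ≤ Real.exp (4 * g * S) := fun s s0 s1 => by
    rw [← e1]
    refine (integral_mono (j1 _) (integrable_const (Real.exp (4 * g * S))) fun J => ?_).trans
      (by simp)
    obtain ⟨f, f1, f2⟩ := hf J
    have b1 := pow_le_pow_left₀ (norm_nonneg _) (f1.2 ((-(2 * s) : ℝ) : ℂ)) 2
    rw [f2, one_mul, ← Real.exp_nat_mul, Complex.norm_real, norm_neg,
      Real.norm_of_nonneg (by positivity)] at b1
    refine b1.trans (Real.exp_le_exp.2 ?_)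
    have := mul_le_mul_of_nonneg_left s1 hg
    push_cast
    linarith
  obtain ⟨η, hη⟩ : ∃ η, η = ∫ J, ∑ τ, q J τ * chi (∑ e, a τ e * J e) ∂gp ι := ⟨_, rfl⟩
  have one : ∀ k ∈ Finset.Icc K (2 * K + 1), ∫ J, ∑ τ, q (J + (-(k * L : ℝ)) • a τ) τ ∂gp ι ≤
      Real.exp (-(K * L) ^ 2 / 8) + l * η + Real.exp (S ^ 2) / l * Real.exp (4 * g * S) := by
    intro k hk
    obtain ⟨k1, k2⟩ := Finset.mem_Icc.1 hk
    have s0 : (K : ℝ) * L ≤ k * L := mul_le_mul_of_nonneg_right (Nat.cast_le.2 k1) h0.le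
    have s1 : (k : ℝ) * L ≤ S := hS ▸ mul_le_mul_of_nonneg_right (Nat.cast_le.2 k2) h0.le
    have j4 : Integrable (fun J => Real.exp (-(k * L : ℝ) ^ 2 / 8) +
        l * ∑ τ, q J τ * chi (∑ e, a τ e * J e)) (gp ι) := (integrable_const _).add (j3.const_mul l)
    have j5 := (j2 (-(2 * (k * L)))).const_mul (Real.exp (S ^ 2) / l)
    have b1 := integral_mono (j2 (-(k * L))) (j4.add j5) fun J => by
      have c1 := Finset.sum_le_sum fun τ (_ : τ ∈ Finset.univ) => mul_le_mul_of_nonneg_left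
        (sh_le (J := J) (r1 τ) (r2 τ) (hKL.trans s0) s1 l0) (q0 J τ)
      refine c1.trans (le_of_eq ?_)
      simp only [mul_add, Finset.sum_add_distrib, ← Finset.sum_mul, q1, one_mul, Pi.add_apply,
        Finset.mul_sum, mul_left_comm]
    simp only [Pi.add_apply] at b1
    rw [integral_add j4 j5, integral_add (integrable_const _) (j3.const_mul l), integral_const_mul,
      integral_const_mul, ← hη, integral_const, probReal_univ, one_smul] at b1
    have b2 := mul_le_mul_of_nonneg_left (up (k * L) (by positivity) s1)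
      (show 0 ≤ Real.exp (S ^ 2) / l by positivity)
    have b3 : Real.exp (-(k * L : ℝ) ^ 2 / 8) ≤ Real.exp (-(K * L) ^ 2 / 8) :=
      Real.exp_le_exp.2 (by linarith [pow_le_pow_left₀ (by positivity) s0 2])
    rw [e1]
    linarith
  have a1 := Finset.sum_le_card_nsmul _ _ _ one
  rw [← integral_finsetSum _ fun k _ => j1 _, Nat.card_Icc, show 2 * K + 1 + 1 - K = K + 2 by omega,
    nsmul_eq_mul] at a1
  have a2 := integral_mono (integrable_const c)
    (integrable_finsetSum (Finset.Icc K (2 * K + 1)) fun k _ => j1 (-(k * L))) fun J => by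
      obtain ⟨f, f1, f2⟩ := hf J
      have b1 : ‖f 0‖ = 1 := by
        have := f2 0
        simp only [Complex.ofReal_zero, zero_smul, add_zero, q1] at this
        exact (pow_eq_one_iff_of_nonneg (norm_nonneg _) two_ne_zero).1 this
      have b2 := f1.low g0 h0.le hθ.le b1 K
      simpa only [f2, hc] using b2
  rw [integral_const, probReal_univ, one_smul] at a2
  have a3 := num_small hK (hL2.trans h1)
  have a4 : (K + 2) * (Real.exp (S ^ 2) / l * Real.exp (4 * g * S)) = c / 4 := by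
    rw [hl]
    field_simp
  rw [← hc] at a3
  rw [← hη, div_le_iff₀ (by positivity)]
  push_cast at a1
  nlinarith

end Vale.Agent.P367
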