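import Vale.Agent.P367.Sz
import Vale.Agent.P367.Tail

/-! P367: the gain from flipping spins with negative local field. -/

open MeasureTheory ProbabilityTheory Matrix

noncomputable section

namespace Vale.Agent.P367

variable {n : ℕ}

theorem sp_cases (b : Bool) : sp b = 1 ∨ sp b = -1 := by cases b <;> simp [sp]

theorem sp_abs (b : Bool) : |sp b| = 1 := by cases b <;> simp [sp]

/-- The product of the two spins of a pair. -/
def se (e : Pr n) (σ : Cfg n) : ℝ := sp (σ e.1.1) * sp (σ e.1.2)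

theorem se_cases (e : Pr n) (σ : Cfg n) : se e σ = 1 ∨ se e σ = -1 := by
  unfold se
  rcases sp_cases (σ e.1.1) with a | a <;> rcases sp_cases (σ e.1.2) with b | b <;> simp [a, b]

theorem se_sq (e : Pr n) (σ : Cfg n) : se e σ ^ 2 = 1 := by
  rcases se_cases e σ with a | a <;> simp [a]

/-- Incidence of a site and a pair. -/
def inc (i : Fin n) (e : Pr n) : ℝ := (if e.1.1 = i then 1 else 0) + if e.1.2 = i then 1 else 0

theorem inc_sq (i : Fin n) (e : Pr n) : inc i e ^ 2 = inc i e := by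
  have := e.2
  unfold inc
  split_ifs with h1 h2
  · exact absurd (h1.trans h2.symm) this.ne
  all_goals norm_num

theorem inc_nonneg (i : Fin n) (e : Pr n) : 0 ≤ inc i e := inc_sq i e ▸ sq_nonneg _

theorem inc_sum (i : Fin n) : ∑ e : Pr n, inc i e = n - 1 := by
  have h := Finset.sum_subtype (F := inferInstance) (p := fun e : Fin n × Fin n => e.1 < e.2)
    (Finset.univ.filter fun e : Fin n × Fin n => e.1 < e.2) (by simp)
    (fun e => (if e.1 = i then (1 : ℝ) else 0) + if e.2 = i then 1 else 0)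
  unfold inc
  rw [← h, Finset.sum_filter, Fintype.sum_prod_type]
  have e1 : ∀ a b : Fin n, (if a < b then (if a = i then (1 : ℝ) else 0) + if b = i then 1 else 0
      else 0) = (if a = i then (if i < b then 1 else 0) else 0) +
        if b = i then (if a < i then 1 else 0) else 0 := fun a b => by
    by_cases h1 : a = i <;> by_cases h2 : b = i <;> by_cases h3 : a < b <;> simp_all
  simp only [e1, Finset.sum_add_distrib]
  rw [Finset.sum_comm]
  simp only [Finset.sum_ite_eq', Finset.mem_univ, if_true]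
  rw [← Finset.sum_add_distrib]
  have e2 : ∀ b : Fin n, ((if i < b then (1 : ℝ) else 0) + if b < i then 1 else 0) =
      1 - if b = i then 1 else 0 := fun b => by
    rcases lt_trichotomy i b with h | h | h
    · simp [h, h.ne', h.not_gt]
    · simp [h]
    · simp [h, h.ne, h.not_gt]
  simp [e2]

theorem sum_inc (u : Fin n → ℝ) (e : Pr n) : ∑ i, u i * inc i e = u e.1.1 + u e.1.2 := by
  simp [inc, mul_add, Finset.sum_add_distrib]

/-- The multilinear extension. -/
def ml (J : Pr n → ℝ) (m : Fin n → ℝ) : ℝ := (√(n : ℝ))⁻¹ * ∑ e : Pr n, J e * (m e.1.1 * m e.1.2)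

theorem le_best (J : Pr n → ℝ) (σ : Cfg n) : ham n J σ ≤ best n J :=
  le_ciSup (f := fun σ => ham n J σ) (Set.finite_range _).bddAbove σ

theorem ml_le (J : Pr n → ℝ) {m : Fin n → ℝ} (hm : ∀ i, |m i| ≤ 1) {b : ℝ}
    (hb : ∀ σ, ham n J σ ≤ b) : ml J m ≤ b := by
  have key : ∀ f : Fin n → Bool → ℝ, ∑ σ : Cfg n, ∏ i, f i (σ i) = ∏ i, (f i true + f i false) :=
    fun f => by
      rw [← Fintype.piFinset_univ, ← Finset.prod_univ_sum]
      simp
  have p0 : ∀ σ : Cfg n, 0 ≤ ∏ i, (1 + m i * sp (σ i)) / 2 := fun σ =>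
    Finset.prod_nonneg fun i _ => by
      have := abs_le.1 (hm i)
      rcases sp_cases (σ i) with a | a <;> rw [a] <;> linarith
  have p1 : ∑ σ : Cfg n, ∏ i, (1 + m i * sp (σ i)) / 2 = 1 := by
    rw [key fun i b => (1 + m i * sp b) / 2]
    exact Finset.prod_eq_one fun i _ => by simp [sp]; ring
  have p2 : ∀ e : Pr n, ∑ σ : Cfg n, (∏ i, (1 + m i * sp (σ i)) / 2) *
      (sp (σ e.1.1) * sp (σ e.1.2)) = m e.1.1 * m e.1.2 := fun e => by
    have a1 : ∀ u : Fin n → ℝ, u e.1.1 * u e.1.2 =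
        ∏ i, ((if i = e.1.1 then u i else 1) * if i = e.1.2 then u i else 1) := fun u => by
      rw [Finset.prod_mul_distrib, Finset.prod_ite_eq', Finset.prod_ite_eq', if_pos (Finset.mem_univ _),
        if_pos (Finset.mem_univ _)]
    rw [a1 m]
    simp only [fun σ : Cfg n => a1 fun i => sp (σ i), ← Finset.prod_mul_distrib]
    rw [key fun i b => (1 + m i * sp b) / 2 *
      ((if i = e.1.1 then sp b else 1) * if i = e.1.2 then sp b else 1)]
    refine Finset.prod_congr rfl fun i _ => ?_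
    split_ifs with h1 h2
    · exact absurd (h1.symm.trans h2) e.2.ne
    all_goals
      simp [sp]
      ring
  have p3 : ml J m = ∑ σ : Cfg n, (∏ i, (1 + m i * sp (σ i)) / 2) * ham n J σ := by
    simp only [ml, ham, ← p2, Finset.mul_sum]
    rw [Finset.sum_comm]
    exact Finset.sum_congr rfl fun σ _ => Finset.sum_congr rfl fun e _ => by ring
  have p4 := Finset.sum_le_sum fun σ (_ : σ ∈ Finset.univ) => mul_le_mul_of_nonneg_left (hb σ) (p0 σ)
  rw [← Finset.sum_mul, p1, one_mul] at p4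
  exact p3.trans_le p4

/-- The direction of the local field. -/
def dir (i : Fin n) (τ : Cfg n) (e : Pr n) : ℝ := (√(n : ℝ))⁻¹ * (inc i e * se e τ)

/-- The direction of minus the energy. -/
def ndir (σ : Cfg n) (e : Pr n) : ℝ := -((√(n : ℝ))⁻¹ * se e σ)

theorem isq (n : ℕ) : (√(n : ℝ))⁻¹ ^ 2 = (n : ℝ)⁻¹ := by
  rw [inv_pow, Real.sq_sqrt (Nat.cast_nonneg n)]

theorem dir_sq (i : Fin n) (τ : Cfg n) : ∑ e, dir i τ e ^ 2 = (n : ℝ)⁻¹ * (n - 1) := by
  simp only [dir, mul_pow, isq, inc_sq, se_sq, mul_one, ← Finset.mul_sum, inc_sum]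

theorem neg_ham (hn : 2 ≤ n) (J : Pr n → ℝ) (σ : Cfg n) :
    -ham n J σ ≤ 2 * n + ∑ ρ, (1 / 2) ^ n * sh (ndir ρ) J := by
  have n0 : (0 : ℝ) < n := by exact_mod_cast (by omega : 0 < n)
  refine le_trans ?_ (add_le_add_right (Finset.single_le_sum
    (f := fun ρ => (1 / 2 : ℝ) ^ n * sh (ndir ρ) J) (fun ρ _ => by unfold sh; positivity)
    (Finset.mem_univ σ)) _)
  have a1 : ∑ e, ndir σ e * J e = -ham n J σ := by
    simp only [ndir, ham, se, Finset.mul_sum, ← Finset.sum_neg_distrib]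
    exact Finset.sum_congr rfl fun e _ => by ring
  have a2 : ∑ e, ndir σ e ^ 2 ≤ n := by
    simp only [ndir, neg_sq, mul_pow, isq, se_sq, mul_one, Finset.sum_const, Finset.card_univ,
      nsmul_eq_mul]
    have : Fintype.card (Pr n) ≤ n * n := (Fintype.card_subtype_le _).trans (by simp)
    rw [← div_eq_mul_inv, div_le_iff₀ n0]
    exact_mod_cast this
  have a3 : Real.exp (n * (-1)) ≤ (1 / 2) ^ n := by
    rw [Real.exp_nat_mul]
    refine pow_le_pow_left₀ (by positivity) ?_ n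
    rw [Real.exp_neg, one_div]
    exact inv_anti₀ two_pos (by linarith [Real.add_one_le_exp 1])
  have a4 := mul_le_mul_of_nonneg_right a3 (show 0 ≤ sh (ndir σ) J by unfold sh; positivity)
  rw [sh, a1, ← Real.exp_add] at a4
  rw [sh, a1]
  linarith [Real.add_one_le_exp (n * (-1) + (-ham n J σ - (∑ e, ndir σ e ^ 2) / 2))]

theorem gain (hn : 2 ≤ n) (J : Pr n → ℝ) (τ : Cfg n) {ε : ℝ} (h0 : 0 ≤ ε) (h1 : ε ≤ 1) :
    ham n J τ ≤ best n J - 2 * ε * ∑ i, chi (∑ e, dir i τ e * J e) +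
      4 * ε ^ 2 * (2 * n + ∑ ρ, (1 / 2) ^ n * sh (ndir ρ) J) := by
  obtain ⟨u, hu⟩ : ∃ u : Fin n → ℝ, u = fun i => chi (∑ e, dir i τ e * J e) := ⟨_, rfl⟩
  have u0 : ∀ i, 0 ≤ u i ∧ u i ≤ 1 := fun i => hu ▸ chi_mem _
  have a1 := ml_le J (m := fun i => sp (τ i) * (1 - 2 * ε * u i)) (fun i => by
    rw [abs_mul, sp_abs, one_mul, abs_le]
    constructor <;> nlinarith [u0 i]) (le_best J)
  have a2 := ml_le (-J) (m := fun i => sp (τ i) * u i) (fun i => by
    rw [abs_mul, sp_abs, one_mul, abs_of_nonneg (u0 i).1]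
    exact (u0 i).2) (b := 2 * n + ∑ ρ, (1 / 2) ^ n * sh (ndir ρ) J) fun σ => by
      refine le_trans (le_of_eq ?_) (neg_ham hn J σ)
      simp [ham]
  have a3 : ml J (fun i => sp (τ i) * (1 - 2 * ε * u i)) = ham n J τ -
      2 * ε * ∑ i, u i * ∑ e, dir i τ e * J e - 4 * ε ^ 2 * ml (-J) fun i => sp (τ i) * u i := by
    have b1 : ∑ i, u i * ∑ e, dir i τ e * J e =
        ∑ e, (√(n : ℝ))⁻¹ * (se e τ * J e) * (u e.1.1 + u e.1.2) := by
      simp only [← sum_inc, Finset.mul_sum]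
      rw [Finset.sum_comm]
      exact Finset.sum_congr rfl fun e _ => Finset.sum_congr rfl fun i _ => by
        unfold dir
        ring
    rw [b1]
    simp only [ml, ham, se, Finset.mul_sum, ← Finset.sum_sub_distrib, Pi.neg_apply]
    exact Finset.sum_congr rfl fun e _ => by ring
  have a4 : ∑ i, u i * ∑ e, dir i τ e * J e ≤ -∑ i, u i := by
    rw [← Finset.sum_neg_distrib]
    refine Finset.sum_le_sum fun i _ => ?_
    simp only [hu, chi]
    split_ifs with h
    · linarith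
    · simp
  have a5 := mul_le_mul_of_nonneg_left a4 (show 0 ≤ 2 * ε by positivity)
  have a6 := mul_le_mul_of_nonneg_left a2 (show 0 ≤ 4 * ε ^ 2 by positivity)
  rw [show ∑ i, chi (∑ e, dir i τ e * J e) = ∑ i, u i by rw [hu]]
  linarith

end Vale.Agent.P367
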