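import Vale.Agent.P367.Gain

/-! P367: the uniform gap for bounded total phase time. -/

open MeasureTheory ProbabilityTheory Matrix

noncomputable section

namespace Vale.Agent.P367

variable {n p : ℕ}

theorem mixer_herm (n : ℕ) : (mixer n)ᴴ = mixer n := by
  rw [mixer, conjTranspose_sum]
  refine Finset.sum_congr rfl fun i _ => ?_
  have key : ∀ σ τ : Cfg n, τ = Function.update σ i (!σ i) → σ = Function.update τ i (!τ i) := by
    rintro σ τ rfl
    simp
  ext σ τ
  simp only [pauliX, conjTranspose_apply, of_apply]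
  by_cases h : τ = Function.update σ i (!σ i)
  · rw [if_pos h, if_pos (key _ _ h), star_one]
  · rw [if_neg h, if_neg fun h' => h (key _ _ h'), star_zero]

theorem layer_eq (J : Pr n → ℝ) (γ β : ℝ) (ψ : Cfg n → ℂ) : layer n J γ β ψ =
    NormedSpace.exp ((-(Complex.I * β)) • mixer n) *ᵥ fun σ =>
      Complex.exp (-(Complex.I * γ) * ham n J σ) * ψ σ := by
  rw [layer, cost, exp_diag]

theorem plus_norm (n : ℕ) : ‖(WithLp.toLp 2 (plus n) : EuclideanSpace ℂ (Cfg n))‖ = 1 := by
  refine (pow_eq_one_iff_of_nonneg (norm_nonneg _) two_ne_zero).1 ?_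
  rw [EuclideanSpace.norm_sq_eq]
  simp only [plus, Complex.norm_real, Real.norm_eq_abs, sq_abs, Finset.sum_const, Finset.card_univ,
    nsmul_eq_mul]
  rw [← pow_mul, mul_comm n 2, pow_mul, inv_pow, Real.sq_sqrt zero_le_two]
  simp

theorem ham_cont (σ : Cfg n) : Continuous fun J => ham n J σ := by
  unfold ham
  fun_prop

theorem state_cont (γ β : Fin p → ℝ) : Continuous fun J => state n J γ β := by
  have key : ∀ (l : List (Fin p)) (v : (Pr n → ℝ) → Cfg n → ℂ), Continuous v →
      Continuous fun J => l.foldl (fun ψ k => layer n J (γ k) (β k) ψ) (v J) := by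
    intro l
    induction l with
    | nil => exact fun v hv => hv
    | cons k l ih =>
      intro v hv
      refine ih (fun J => layer n J (γ k) (β k) (v J)) (continuous_pi fun σ => ?_)
      have h1 := fun ρ => (continuous_apply ρ).comp hv
      have h2 := ham_cont (n := n)
      simp only [layer_eq, mulVec, dotProduct]
      fun_prop
  exact key _ _ continuous_const

theorem state_norm (J : Pr n → ℝ) (γ β : Fin p → ℝ) : ∑ τ, ‖state n J γ β τ‖ ^ 2 = 1 := by
  have key : ∀ (l : List (Fin p)) (v : Cfg n → ℂ),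
      ‖(WithLp.toLp 2 (l.foldl (fun ψ k => layer n J (γ k) (β k) ψ) v) :
        EuclideanSpace ℂ (Cfg n))‖ = ‖(WithLp.toLp 2 v : EuclideanSpace ℂ (Cfg n))‖ := by
    intro l
    induction l with
    | nil => exact fun v => rfl
    | cons k l ih =>
      intro v
      rw [List.foldl_cons, ih, layer, nrm_unit (exp_unit (mixer_herm n) _), nrm_unit (exp_unit _ _)]
      rw [cost, diagonal_conjTranspose]
      refine congrArg diagonal (funext fun σ => ?_)
      simp
  have := key (List.finRange p) (plus n)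
  rw [plus_norm] at this
  have h2 := EuclideanSpace.norm_sq_eq
    (WithLp.toLp 2 (state n J γ β) : EuclideanSpace ℂ (Cfg n))
  rw [state, this, one_pow] at h2
  exact h2.symm

theorem energy_eq (J : Pr n → ℝ) (γ β : Fin p → ℝ) :
    energy n J γ β = ∑ τ, ‖state n J γ β τ‖ ^ 2 * ham n J τ := by
  rw [energy, dotProduct, Complex.re_sum]
  refine Finset.sum_congr rfl fun σ _ => ?_
  rw [cost, mulVec_diagonal, Pi.star_apply, Complex.star_def, mul_left_comm, Complex.conj_mul',
    mul_comm]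
  norm_cast

theorem entire (hn : 2 ≤ n) (i : Fin n) (J : Pr n → ℝ) (γ β : Fin p → ℝ) {Γ : ℝ}
    (hΓ : ∑ k, |γ k| ≤ Γ) : ∃ f : ℂ → EuclideanSpace ℂ (Cfg n), Cl (2 * Γ) f 1 ∧
      ∀ t : ℝ, ‖f t‖ ^ 2 = ∑ τ, ‖state n (J + t • dir i τ) γ β τ‖ ^ 2 := by
  have n0 : (0 : ℝ) < n := by exact_mod_cast (by omega : 0 < n)
  obtain ⟨h1, h2⟩ := fold_sz (mixer_herm n) (ham n J) (w := fun e => (n : ℝ)⁻¹ * inc i e) (by
      simp only [abs_mul, abs_of_nonneg (inc_nonneg i _), ← Finset.mul_sum, inc_sum,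
        abs_of_pos (inv_pos.2 n0)]
      rw [inv_mul_le_iff₀ n0]
      linarith) (s := se) se_cases γ β (List.finRange p) (fun _ _ => plus n) 0
    (fun _ => differentiable_const _) fun z => by
      simpa [plus_norm] using sz_const (plus n)
  refine ⟨fun z => WithLp.toLp 2 fun τ => (List.finRange p).foldl (fun ψ k =>
    stp (mixer n) (ham n J) (fun e => (n : ℝ)⁻¹ * inc i e) se (γ k) (β k) z τ ψ) (plus n) τ,
    ⟨differentiable_euclidean.2 fun τ => differentiable_pi.1 (h1 τ) τ, fun z => ?_⟩, fun t => ?_⟩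
  · have := h2 z 1 (one_mem _)
    simp only [dg, one_mulVec] at this
    refine this.trans ?_
    rw [one_mul, zero_add, ← Fin.sum_univ_def]
    exact Real.exp_le_exp.2 (mul_le_mul_of_nonneg_right (by linarith) (norm_nonneg _))
  · rw [EuclideanSpace.norm_sq_eq]
    refine Finset.sum_congr rfl fun τ _ => ?_
    have e : ∀ (k : Fin p) (ψ : Cfg n → ℂ), layer n (J + t • dir i τ) (γ k) (β k) ψ =
        stp (mixer n) (ham n J) (fun e => (n : ℝ)⁻¹ * inc i e) se (γ k) (β k) t τ ψ := by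
      intro k ψ
      rw [layer_eq, stp]
      refine congrArg (Matrix.mulVec _) (funext fun σ => ?_)
      have e1 : ham n (J + t • dir i τ) σ =
          ham n J σ + t * ∑ e, (n : ℝ)⁻¹ * inc i e * (se e τ * se e σ) := by
        simp only [ham, dir, se, Pi.add_apply, Pi.smul_apply, smul_eq_mul, Finset.mul_sum,
          ← Finset.sum_add_distrib, ← isq]
        exact Finset.sum_congr rfl fun e _ => by ring
      rw [e1, Complex.ofReal_add, Complex.ofReal_mul]
    simp only [state, e]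

theorem ham_int (σ : Cfg n) : Integrable (fun J => ham n J σ) (gp (Pr n)) := by
  unfold ham
  refine (integrable_finsetSum _ fun e _ => Integrable.mul_const ?_ _).const_mul _
  exact (measurePreserving_eval (fun _ => gaussianReal 0 1) e).integrable_comp_of_integrable
    (g := id) (memLp_one_iff_integrable.1 (memLp_id_gaussianReal 1))

theorem best_int (n : ℕ) : Integrable (best n) (gp (Pr n)) := by
  refine (integrable_finsetSum Finset.univ fun σ _ => (ham_int σ).norm).mono'
    (Measurable.iSup fun σ => (ham_cont σ).measurable).aestronglyMeasurable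
    (ae_of_all _ fun J => ?_)
  obtain ⟨σ, hσ⟩ := exists_eq_ciSup_of_finite (f := fun σ => ham n J σ)
  rw [best, ← hσ]
  exact Finset.single_le_sum (f := fun σ => ‖ham n J σ‖) (fun _ _ => norm_nonneg _)
    (Finset.mem_univ σ)

theorem energy_int (γ β : Fin p → ℝ) : Integrable (fun J => energy n J γ β) (gp (Pr n)) := by
  simp only [energy_eq]
  refine integrable_finsetSum _ fun τ _ => (ham_int τ).bdd_mul (c := 1)
    (((continuous_apply τ).comp (state_cont γ β)).norm.pow 2).aestronglyMeasurable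
    (ae_of_all _ fun J => ?_)
  rw [Real.norm_of_nonneg (sq_nonneg _)]
  exact (Finset.single_le_sum (f := fun τ => ‖state n J γ β τ‖ ^ 2) (fun τ _ => sq_nonneg _)
    (Finset.mem_univ τ)).trans (state_norm J γ β).le

theorem gap0 {Γ η : ℝ} (h1 : 1 ≤ 2 * Γ) (η0 : 0 < η) (η1 : η ≤ 1)
    (η2 : η ≤ Real.exp (-(10 ^ 9 * (2 * Γ) ^ 2))) (γ β : Fin p → ℝ) (hn : 2 ≤ n)
    (hΓ : ∑ k, |γ k| ≤ Γ) :
    ∫ J, energy n J γ β ∂gauss n ≤ ∫ J, best n J ∂gauss n - η ^ 2 / 12 * n := by
  have n2 : (2 : ℝ) ≤ n := by exact_mod_cast hn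
  obtain ⟨q, hq⟩ : ∃ q : (Pr n → ℝ) → Cfg n → ℝ, q = fun J τ => ‖state n J γ β τ‖ ^ 2 := ⟨_, rfl⟩
  have qc : ∀ τ, Continuous fun J => q J τ := fun τ => by
    rw [hq]
    exact ((continuous_apply τ).comp (state_cont γ β)).norm.pow 2
  have q0 : ∀ J τ, 0 ≤ q J τ := fun J τ => by rw [hq]; exact sq_nonneg _
  have q1 : ∀ J, ∑ τ, q J τ = 1 := fun J => by rw [hq]; exact state_norm J γ β
  have q2 : ∀ J τ, q J τ ≤ 1 := fun J τ =>
    (Finset.single_le_sum (fun τ _ => q0 J τ) (Finset.mem_univ τ)).trans (q1 J).le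
  have t1 : ∀ i, η ≤ ∫ J, ∑ τ, q J τ * chi (∑ e, dir i τ e * J e) ∂gp (Pr n) := fun i =>
    η2.trans (tail h1 q (dir i) qc q0 q1
      (fun τ => by rw [dir_sq, le_inv_mul_iff₀ (by linarith)]; linarith)
      (fun τ => by rw [dir_sq, inv_mul_le_iff₀ (by linarith)]; linarith)
      fun J => by rw [hq]; exact entire hn i J γ β hΓ)
  have i1 : ∀ i, Integrable (fun J => ∑ τ, q J τ * chi (∑ e, dir i τ e * J e)) (gp (Pr n)) :=
    fun i => integrable_finsetSum _ fun τ _ =>
      bdd_int ((qc τ).measurable.mul (chi_meas.comp (by fun_prop))) fun J =>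
        ⟨mul_nonneg (q0 _ _) (chi_mem _).1, mul_le_one₀ (q2 _ _) (chi_mem _).1 (chi_mem _).2⟩
  have i2 : Integrable (fun J => ∑ τ, q J τ * ham n J τ) (gp (Pr n)) :=
    integrable_finsetSum _ fun τ _ => (ham_int τ).bdd_mul (c := 1) (qc τ).aestronglyMeasurable
      (ae_of_all _ fun J => by rw [Real.norm_of_nonneg (q0 _ _)]; exact q2 _ _)
  have i3 : ∀ ρ : Cfg n, Integrable (fun J => (1 / 2 : ℝ) ^ n * sh (ndir ρ) J) (gp (Pr n)) :=
    fun ρ => (sh_integrable _).const_mul _
  have i4 : Integrable (fun J => best n J - 2 * (η / 12) *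
      ∑ i, ∑ τ, q J τ * chi (∑ e, dir i τ e * J e)) (gp (Pr n)) :=
    (best_int n).sub ((integrable_finsetSum _ fun i _ => i1 i).const_mul _)
  have i5 : Integrable (fun J => 4 * (η / 12) ^ 2 *
      (2 * (n : ℝ) + ∑ ρ : Cfg n, (1 / 2 : ℝ) ^ n * sh (ndir ρ) J)) (gp (Pr n)) :=
    ((integrable_const _).add (integrable_finsetSum _ fun ρ _ => i3 ρ)).const_mul _
  have a1 := integral_mono i2 (i4.add i5) fun J => by
    have b1 := Finset.sum_le_sum fun τ (_ : τ ∈ Finset.univ) => mul_le_mul_of_nonneg_left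
      (gain hn J τ (ε := η / 12) (by positivity) (by linarith)) (q0 J τ)
    refine b1.trans (le_of_eq ?_)
    rw [Pi.add_apply, Finset.sum_comm]
    simp only [mul_add (q J _), mul_sub (q J _), Finset.sum_add_distrib, Finset.sum_sub_distrib,
      ← Finset.sum_mul, q1, one_mul, ← Finset.mul_sum, mul_left_comm (q J _)]
  simp only [Pi.add_apply] at a1
  rw [integral_add i4 i5, integral_sub (best_int n)
    ((integrable_finsetSum _ fun i _ => i1 i).const_mul _), integral_const_mul, integral_const_mul,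
    integral_add (integrable_const _) (integrable_finsetSum _ fun ρ _ => i3 ρ),
    integral_finsetSum _ fun i _ => i1 i, integral_finsetSum _ fun ρ _ => i3 ρ] at a1
  simp only [integral_const_mul, sh_int, integral_const, probReal_univ, one_smul, mul_one,
    Finset.sum_const, Finset.card_univ, nsmul_eq_mul] at a1
  have a2 := Finset.card_nsmul_le_sum Finset.univ _ η fun i _ => t1 i
  rw [Finset.card_univ, Fintype.card_fin, nsmul_eq_mul] at a2
  have a3 : (Fintype.card (Cfg n) : ℝ) * (1 / 2) ^ n = 1 := by simp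
  rw [a3] at a1
  have a4 := mul_le_mul_of_nonneg_left a2 (show 0 ≤ 2 * (η / 12) by positivity)
  have e : ∫ J, energy n J γ β ∂gauss n = ∫ J, ∑ τ, q J τ * ham n J τ ∂gp (Pr n) := by
    simp only [energy_eq, hq]
    rfl
  have e' : ∫ J, best n J ∂gauss n = ∫ J, best n J ∂gp (Pr n) := rfl
  rw [e, e']
  nlinarith [sq_nonneg η]

theorem gapq (γ β : Fin p → ℝ) (hn : 2 ≤ n) {Γ : ℝ} (hΓ : ∑ k, |γ k| ≤ Γ) :
    ∫ J, energy n J γ β ∂gauss n ≤
      ∫ J, best n J ∂gauss n - Real.exp (-(10 ^ 11 * (1 + Γ ^ 2))) * n := by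
  have g0 : 0 ≤ Γ := (Finset.sum_nonneg fun _ _ => abs_nonneg _).trans hΓ
  have h := gap0 (Γ := Γ + 1) (by linarith) (Real.exp_pos _)
    (Real.exp_le_one_iff.2 (neg_nonpos.2 (by positivity))) le_rfl γ β hn (by linarith)
  refine h.trans (sub_le_sub_left (mul_le_mul_of_nonneg_right ?_ (Nat.cast_nonneg n)) _)
  rw [le_div_iff₀ (by norm_num), ← Real.exp_nat_mul]
  refine (mul_le_mul_of_nonneg_left (show (12 : ℝ) ≤ Real.exp 12 by
    linarith [Real.add_one_le_exp 12]) (by positivity)).trans ?_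
  rw [← Real.exp_add]
  refine Real.exp_le_exp.2 ?_
  push_cast
  nlinarith [sq_nonneg (Γ - 1), sq_nonneg Γ]

theorem gap (Γ : ℝ) : ∃ δ : ℝ, 0 < δ ∧ ∀ (n p : ℕ) (γ β : Fin p → ℝ), 2 ≤ n → ∑ k, |γ k| ≤ Γ →
    ∫ J, energy n J γ β ∂gauss n ≤ ∫ J, best n J ∂gauss n - δ * n :=
  ⟨_, Real.exp_pos _, fun _ _ γ β hn hΓ => gapq γ β hn hΓ⟩

end Vale.Agent.P367
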