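import Vale.Agent.P367.Defs
import Vale.Agent.P367.An

/-! P367: families of vectors labelled by the measured configuration. -/

open Matrix

set_option linter.unusedSectionVars false

noncomputable section

namespace Vale.Agent.P367

variable {X : Type} [Fintype X] [DecidableEq X] {v w : X → X → ℂ} {c d : ℝ}

/-- The diagonal vector of a family after a matrix is applied. -/
def dg (U : Matrix X X ℂ) (v : X → X → ℂ) : EuclideanSpace ℂ X :=
  WithLp.toLp 2 fun τ => (U *ᵥ v τ) τ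

/-- The size of a family. -/
def Sz (v : X → X → ℂ) (c : ℝ) : Prop := ∀ U ∈ Matrix.unitaryGroup X ℂ, ‖dg U v‖ ≤ c

theorem nrm_sq (ψ : X → ℂ) :
    ‖(WithLp.toLp 2 ψ : EuclideanSpace ℂ X)‖ ^ 2 = (star ψ ⬝ᵥ ψ).re := by
  rw [EuclideanSpace.norm_sq_eq, dotProduct, Complex.re_sum]
  refine Finset.sum_congr rfl fun σ _ => ?_
  rw [Pi.star_apply, Complex.star_def, Complex.conj_mul']
  norm_cast

theorem nrm_unit {U : Matrix X X ℂ} (hU : U ∈ Matrix.unitaryGroup X ℂ) (ψ : X → ℂ) :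
    ‖(WithLp.toLp 2 (U *ᵥ ψ) : EuclideanSpace ℂ X)‖ = ‖(WithLp.toLp 2 ψ : EuclideanSpace ℂ X)‖ := by
  refine (pow_left_inj₀ (norm_nonneg _) (norm_nonneg _) two_ne_zero).1 ?_
  rw [nrm_sq, nrm_sq, star_mulVec, dotProduct_mulVec, vecMul_vecMul, ← star_eq_conjTranspose,
    Matrix.mem_unitaryGroup_iff'.1 hU, vecMul_one]

theorem sz_const (ψ : X → ℂ) :
    Sz (fun _ => ψ) ‖(WithLp.toLp 2 ψ : EuclideanSpace ℂ X)‖ := fun _ hU => (nrm_unit hU ψ).le

theorem Sz.mono (h : Sz v c) (hc : c ≤ d) : Sz v d := fun U hU => (h U hU).trans hc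

theorem Sz.nonneg (h : Sz v c) : 0 ≤ c := (norm_nonneg _).trans (h 1 (one_mem _))

theorem Sz.unit (h : Sz v c) {V : Matrix X X ℂ} (hV : V ∈ Matrix.unitaryGroup X ℂ) :
    Sz (fun τ => V *ᵥ v τ) c := fun U hU => by
  have := h (U * V) (mul_mem hU hV)
  simpa only [dg, mulVec_mulVec] using this

theorem diag_unit {s : X → ℂ} (hs : ∀ σ, ‖s σ‖ = 1) :
    diagonal s ∈ Matrix.unitaryGroup X ℂ := by
  rw [Matrix.mem_unitaryGroup_iff, star_eq_conjTranspose, diagonal_conjTranspose,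
    diagonal_mul_diagonal, ← diagonal_one]
  refine congrArg diagonal (funext fun σ => ?_)
  rw [Pi.star_apply, Complex.star_def, Complex.mul_conj', hs]
  simp

theorem Sz.two (h : Sz v c) {s : X → ℝ} (hs : ∀ σ, s σ = 1 ∨ s σ = -1) (α β : ℂ) :
    Sz (fun τ σ => (α + β * (s τ * s σ)) * v τ σ) ((‖α‖ + ‖β‖) * c) := fun U hU => by
  have hD : diagonal (fun σ => (s σ : ℂ)) ∈ Matrix.unitaryGroup X ℂ := diag_unit fun σ => by
    rcases hs σ with e | e <;> simp [e]
  have e : dg U (fun τ σ => (α + β * (s τ * s σ)) * v τ σ) = α • dg U v +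
      β • dg (diagonal (fun σ => (s σ : ℂ)) * U * diagonal fun σ => (s σ : ℂ)) v := by
    ext τ
    simp only [dg, PiLp.add_apply, PiLp.smul_apply, smul_eq_mul, mulVec, dotProduct,
      Finset.mul_sum, ← Finset.sum_add_distrib, mul_diagonal, diagonal_mul]
    exact Finset.sum_congr rfl fun σ _ => by ring
  rw [e]
  refine (norm_add_le _ _).trans ?_
  rw [norm_smul, norm_smul, add_mul]
  exact add_le_add (mul_le_mul_of_nonneg_left (h U hU) (norm_nonneg _))
    (mul_le_mul_of_nonneg_left (h _ (mul_mem (mul_mem hD hU) hD)) (norm_nonneg _))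

theorem Sz.one (h : Sz v c) {s : X → ℝ} (hs : ∀ σ, s σ = 1 ∨ s σ = -1) (ζ : ℂ) :
    Sz (fun τ σ => Complex.exp (ζ * (s τ * s σ)) * v τ σ) (Real.exp (2 * ‖ζ‖) * c) := by
  have h1 := h.two hs ((Complex.exp ζ + Complex.exp (-ζ)) / 2)
    ((Complex.exp ζ - Complex.exp (-ζ)) / 2)
  have e : (fun τ σ => Complex.exp (ζ * (s τ * s σ)) * v τ σ) = fun τ σ =>
      ((Complex.exp ζ + Complex.exp (-ζ)) / 2 + (Complex.exp ζ - Complex.exp (-ζ)) / 2 *
        (s τ * s σ)) * v τ σ := by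
    funext τ σ
    rcases hs τ with a | a <;> rcases hs σ with b | b <;> simp [a, b] <;> left <;> ring
  rw [e]
  refine h1.mono (mul_le_mul_of_nonneg_right ?_ h.nonneg)
  have a1 := Complex.norm_exp_sub_sum_le_exp_norm_sub_sum ζ 1
  have a2 := Complex.norm_exp_sub_sum_le_exp_norm_sub_sum (-ζ) 1
  simp only [Finset.range_one, Finset.sum_singleton, pow_zero, Nat.factorial_zero, Nat.cast_one,
    div_one, norm_neg] at a1 a2
  have a3 := norm_add₃_le (a := Complex.exp ζ - 1) (b := Complex.exp (-ζ) - 1) (c := (2 : ℂ))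
  have a4 := norm_sub_le (Complex.exp ζ - 1) (Complex.exp (-ζ) - 1)
  rw [show Complex.exp ζ - 1 + (Complex.exp (-ζ) - 1) + 2 = Complex.exp ζ + Complex.exp (-ζ) by
    ring] at a3
  rw [show Complex.exp ζ - 1 - (Complex.exp (-ζ) - 1) = Complex.exp ζ - Complex.exp (-ζ) by
    ring] at a4
  rw [norm_div, norm_div, two_mul, Real.exp_add]
  simp only [Complex.norm_ofNat] at a3 ⊢
  nlinarith [sq_nonneg (Real.exp ‖ζ‖ - 1)]

theorem Sz.many {ι : Type} (h : Sz v c) {s : ι → X → ℝ} (hs : ∀ e σ, s e σ = 1 ∨ s e σ = -1)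
    (ζ : ι → ℂ) (A : Finset ι) :
    Sz (fun τ σ => Complex.exp (∑ e ∈ A, ζ e * (s e τ * s e σ)) * v τ σ)
      (Real.exp (2 * ∑ e ∈ A, ‖ζ e‖) * c) := by
  classical
  induction A using Finset.induction_on with
  | empty => simpa using h
  | insert e A he ih =>
    have := ih.one (hs e) (ζ e)
    simpa only [Finset.sum_insert he, Complex.exp_add, mul_add, Real.exp_add, mul_assoc] using this

theorem exp_unit {B : Matrix X X ℂ} (hB : Bᴴ = B) (β : ℝ) :
    NormedSpace.exp ((-(Complex.I * β)) • B) ∈ Matrix.unitaryGroup X ℂ := by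
  have e : ((-(Complex.I * β)) • B)ᴴ = -((-(Complex.I * β)) • B) := by
    rw [conjTranspose_smul, hB, ← neg_smul]
    simp
  rw [Matrix.mem_unitaryGroup_iff, star_eq_conjTranspose, ← Matrix.exp_conjTranspose, e,
    ← Matrix.exp_add_of_commute _ _ (Commute.refl ((-(Complex.I * β)) • B)).neg_right, add_neg_cancel,
    NormedSpace.exp_zero]

theorem exp_diag (c : ℂ) (h ψ : X → ℂ) :
    NormedSpace.exp (c • diagonal h) *ᵥ ψ = fun σ => Complex.exp (c * h σ) * ψ σ := by
  funext σ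
  rw [← diagonal_smul, Matrix.exp_diagonal, mulVec_diagonal, Pi.exp_def, Complex.exp_eq_exp_ℂ]
  rfl

variable {ι : Type} [Fintype ι]

/-- One layer with the perturbed diagonal. -/
def stp (B : Matrix X X ℂ) (h : X → ℝ) (w : ι → ℝ) (s : ι → X → ℝ) (γ β : ℝ) (z : ℂ) (τ : X)
    (ψ : X → ℂ) : X → ℂ :=
  NormedSpace.exp ((-(Complex.I * β)) • B) *ᵥ fun σ =>
    Complex.exp (-(Complex.I * γ) * (h σ + z * ∑ e, w e * (s e τ * s e σ))) * ψ σ

theorem fold_sz {κ : Type} {B : Matrix X X ℂ} (hB : Bᴴ = B) (h : X → ℝ) {w : ι → ℝ}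
    (hw : ∑ e, |w e| ≤ 1) {s : ι → X → ℝ} (hs : ∀ e σ, s e σ = 1 ∨ s e σ = -1) (γ β : κ → ℝ)
    (l : List κ) : ∀ (v : ℂ → X → X → ℂ) (g : ℝ), (∀ τ, Differentiable ℂ fun z => v z τ) →
      (∀ z, Sz (v z) (Real.exp (g * ‖z‖))) →
      (∀ τ, Differentiable ℂ fun z =>
        l.foldl (fun ψ k => stp B h w s (γ k) (β k) z τ ψ) (v z τ)) ∧
      ∀ z, Sz (fun τ => l.foldl (fun ψ k => stp B h w s (γ k) (β k) z τ ψ) (v z τ))
        (Real.exp ((g + 2 * (l.map fun k => |γ k|).sum) * ‖z‖)) := by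
  induction l with
  | nil => intro v g h1 h2; exact ⟨h1, by simpa using h2⟩
  | cons k l ih =>
    intro v g h1 h2
    have := ih (fun z τ => stp B h w s (γ k) (β k) z τ (v z τ)) (g + 2 * |γ k|) (fun τ => ?_)
      fun z => ?_
    · simpa only [List.foldl_cons, List.map_cons, List.sum_cons, mul_add, add_assoc] using this
    · refine differentiable_pi.2 fun σ => ?_
      have h3 := fun ρ => differentiable_pi.1 (h1 τ) ρ
      simp only [stp, mulVec, dotProduct]
      fun_prop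
    · have a1 := (((h2 z).many hs (fun e => -(Complex.I * γ k) * z * w e) Finset.univ).unit
        (diag_unit (s := fun σ => Complex.exp (-(Complex.I * γ k) * h σ)) fun σ => by
          rw [Complex.norm_exp]; simp)).unit (exp_unit hB (β k))
      have e : (fun τ => stp B h w s (γ k) (β k) z τ (v z τ)) = fun τ =>
          NormedSpace.exp ((-(Complex.I * β k)) • B) *ᵥ
            (diagonal (fun σ => Complex.exp (-(Complex.I * γ k) * h σ)) *ᵥ fun σ =>
              Complex.exp (∑ e, -(Complex.I * γ k) * z * w e * (s e τ * s e σ)) * v z τ σ) := by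
        funext τ
        unfold stp
        refine congrArg (Matrix.mulVec _) (funext fun σ => ?_)
        rw [mulVec_diagonal, ← mul_assoc, ← Complex.exp_add, mul_add]
        push_cast
        simp only [Finset.mul_sum, mul_assoc]
      rw [e]
      refine a1.mono ?_
      rw [← Real.exp_add]
      refine Real.exp_le_exp.2 ?_
      simp only [norm_mul, norm_neg, Complex.norm_I, one_mul, Complex.norm_real, Real.norm_eq_abs,
        ← Finset.mul_sum]
      have a2 := mul_le_mul_of_nonneg_left hw (show 0 ≤ |γ k| * ‖z‖ by positivity)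
      linarith

end Vale.Agent.P367
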